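import Vale.Agent.P045.C41.Db0

namespace Vale.Agent.P045.C41

open Vale.Agent.P045


noncomputable def sel (_ sh : Nat) : Nat :=
  Nat.shiftRight leaf0 sh

noncomputable def db (id : Nat) : Nat :=
  Nat.land (sel (Nat.shiftRight id 5) (Nat.mul (Nat.land id 31) 345)) 71671831749689734737838152978190216899892655911508785116799651230841339877765150252188079784691427704831

def par : Par := ⟨4, false, 3, 64, 18446744073709551615, 9223512776490647552⟩

end Vale.Agent.P045.C41
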