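import Vale.Agent.P045.Base

namespace Vale.Agent.P045.C41

open Vale.Agent.P045

noncomputable def leaf0 : Nat := 0x10000800100020000800100010001000080008000800080001111868001000040008000400100010001000080004000800100004000800080008000400040004000400008ccc5

end Vale.Agent.P045.C41
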